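import Vale.Agent.Lib.P340.Families

/-! Reducibility candidates and the interpretation of raw expressions as candidates. -/

namespace Vale.Agent.Lib.P340

universe u
variable {S : Type u}

/-- Girard's reducibility candidates. -/
structure Cand (C : Tm S → Prop) : Prop where
  sn : ∀ M, C M → SN M
  step : ∀ M N, C M → Step M N → C N
  neutral : ∀ M, Neutral M → (∀ N, Step M N → C N) → C M

theorem cand_SN : Cand (SN : Tm S → Prop) :=
  ⟨fun _ h => h, fun _ _ h hs => SN.step h hs, fun _ _ h => SN.intro h⟩

theorem Cand.var {C : Tm S → Prop} (h : Cand C) (x : ℕ) : C (Tm.var x) :=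
  h.neutral _ (fun _ _ h => by cases h) (fun _ h => by cases h)

/-- The interpretation of an expression (read as a type) under a valuation of the variables. -/
def interp : Tm S → (ℕ → Tm S → Prop) → Tm S → Prop
  | Tm.var x, ξ => ξ x
  | Tm.sort _, _ => SN
  | Tm.pi A B, ξ => fun M => ∀ N, interp A ξ N → ∀ X : Tm S → Prop, Cand X →
      interp B (scons X ξ) (Tm.app M N)
  | Tm.lam _ B, ξ => interp B (scons SN ξ)
  | Tm.app B _, ξ => interp B ξ

theorem cand_scons {X : Tm S → Prop} {ξ : ℕ → Tm S → Prop} (hX : Cand X)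
    (hξ : ∀ x, Cand (ξ x)) : ∀ x, Cand (scons X ξ x) := by
  intro x
  cases x with
  | zero => exact hX
  | succ n => exact hξ n

theorem interp_cand (T : Tm S) : ∀ ξ : ℕ → Tm S → Prop, (∀ x, Cand (ξ x)) → Cand (interp T ξ) := by
  induction T with
  | var x => intro ξ hξ; exact hξ x
  | sort s => intro ξ _; exact cand_SN
  | app B N ihB _ => intro ξ hξ; exact ihB ξ hξ
  | lam A B _ ihB => intro ξ hξ; exact ihB _ (cand_scons cand_SN hξ)
  | pi A B ihA ihB =>
    intro ξ hξ
    have cA := ihA ξ hξ
    have cB : ∀ X, Cand X → Cand (interp B (scons X ξ)) :=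
      fun X hX => ihB _ (cand_scons hX hξ)
    refine ⟨?_, ?_, ?_⟩
    · intro M h
      exact SN.of_app ((cB _ cand_SN).sn _ (h _ (cA.var 0) _ cand_SN))
    · intro M N h hs Y hY X hX
      exact (cB X hX).step _ _ (h Y hY X hX) (Step.appL _ hs)
    · intro M hn h Y hY X hX
      have hsn : SN Y := cA.sn _ hY
      induction hsn with
      | intro Y _ ih =>
        refine (cB X hX).neutral _ (fun _ _ h => by cases h) ?_
        intro Z hZ
        cases hZ with
        | beta A0 M0 _ => exact absurd rfl (hn A0 M0)
        | appL _ hM => exact h _ hM Y hY X hX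
        | appR _ hN => exact ih _ hN (cA.step _ _ hY hN)

theorem scons_upr {α : Type*} (X : α) (ξ : ℕ → α) (ρ : ℕ → ℕ) :
    (fun x => scons X ξ (upr ρ x)) = scons X (fun x => ξ (ρ x)) := by
  funext x; cases x <;> rfl

theorem interp_rename (T : Tm S) : ∀ (ρ : ℕ → ℕ) (ξ : ℕ → Tm S → Prop),
    interp (rename ρ T) ξ = interp T (fun x => ξ (ρ x)) := by
  induction T with
  | var x => intro ρ ξ; rfl
  | sort s => intro ρ ξ; rfl
  | app B N ihB _ => intro ρ ξ; simp only [rename, interp, ihB]
  | lam A B _ ihB => intro ρ ξ; simp only [rename, interp, ihB, scons_upr]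
  | pi A B ihA ihB => intro ρ ξ; simp only [rename, interp, ihA, ihB, scons_upr]

theorem interp_lift (T : Tm S) (ξ : ℕ → Tm S → Prop) :
    interp (lift T) ξ = interp T (fun x => ξ (x + 1)) := interp_rename T _ ξ

theorem interp_ups (σ : ℕ → Tm S) (X : Tm S → Prop) (ξ : ℕ → Tm S → Prop) :
    (fun x => interp (ups σ x) (scons X ξ)) = scons X (fun x => interp (σ x) ξ) := by
  funext x
  cases x with
  | zero => rfl
  | succ n => simp only [ups_succ, interp_lift, scons_succ]

theorem interp_subst (T : Tm S) : ∀ (σ : ℕ → Tm S) (ξ : ℕ → Tm S → Prop),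
    interp (subst σ T) ξ = interp T (fun x => interp (σ x) ξ) := by
  induction T with
  | var x => intro σ ξ; rfl
  | sort s => intro σ ξ; rfl
  | app B N ihB _ => intro σ ξ; simp only [subst, interp, ihB]
  | lam A B _ ihB => intro σ ξ; simp only [subst, interp, ihB, interp_ups]
  | pi A B ihA ihB => intro σ ξ; simp only [subst, interp, ihA, ihB, interp_ups]

theorem interp_inst (N B : Tm S) (ξ : ℕ → Tm S → Prop) :
    interp (inst N B) ξ = interp B (scons (interp N ξ) ξ) := by
  simp only [inst, interp_subst]
  congr 1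
  funext x
  cases x <;> rfl

variable {K : S → Prop}

/-- The interpretation of a family only depends on the marked variables. -/
theorem TW.interp_congr {δ : ℕ → Option S} {B : Tm S} {t : S} (h : TW K δ B t) :
    ∀ ξ ξ' : ℕ → Tm S → Prop, (∀ x, δ x ≠ none → ξ x = ξ' x) → interp B ξ = interp B ξ' := by
  induction h with
  | var hx => intro ξ ξ' h; exact h _ (by rw [hx]; simp)
  | sort s _ => intro ξ ξ' _; rfl
  | pi _ _ _ _ ih1 ih2 =>
    intro ξ ξ' h
    have e1 := ih1 ξ ξ' h
    have e2 : ∀ X, interp _ (scons X ξ) = interp _ (scons X ξ') := fun X => ih2 _ _ (by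
      intro x hx
      cases x with
      | zero => rfl
      | succ n => exact h n hx)
    simp only [interp, e1, e2]
  | lam A _ ih =>
    intro ξ ξ' h
    refine ih _ _ ?_
    intro x hx
    cases x with
    | zero => rfl
    | succ n => exact h n hx
  | app N _ ih => intro ξ ξ' h; exact ih ξ ξ' h

/-- Reduction does not change the interpretation of a family. -/
theorem TW.interp_step {δ : ℕ → Option S} {B : Tm S} {t : S} (h : TW K δ B t) :
    ∀ B', Step B B' → ∀ ξ : ℕ → Tm S → Prop, interp B' ξ = interp B ξ := by
  induction h with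
  | var _ => intro B' hs; cases hs
  | sort s _ => intro B' hs; cases hs
  | pi _ _ _ _ ih1 ih2 =>
    intro B' hst ξ
    cases hst with
    | piL _ hA => simp only [interp, ih1 _ hA]
    | piR _ hB => simp only [interp, ih2 _ hB]
  | lam A _ ih =>
    intro B' hst ξ
    cases hst with
    | lamL _ hA => rfl
    | lamR _ hB => exact ih _ hB _
  | app N h1 ih =>
    intro B' hst ξ
    cases hst with
    | beta A M0 _ =>
      cases h1 with
      | lam _ h0 =>
        rw [interp_inst]
        refine h0.interp_congr _ _ ?_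
        intro x hx
        cases x with
        | zero => exact absurd rfl hx
        | succ n => rfl
    | appL _ hM => exact ih _ hM ξ
    | appR _ hN => rfl

theorem TW.interp_red {δ : ℕ → Option S} {B B' : Tm S} {t : S} (h : TW K δ B t)
    (hr : Red B B') (ξ : ℕ → Tm S → Prop) : interp B' ξ = interp B ξ := by
  induction hr with
  | refl => rfl
  | tail h1 hst ih => rw [(h.red h1).1.interp_step _ hst ξ, ih]

theorem interp_eq_of_conv {δ : ℕ → Option S} {A B : Tm S} {s t : S}
    (hA : TW K δ A s) (hB : TW K δ B t) (hc : Conv A B) (ξ : ℕ → Tm S → Prop) :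
    interp A ξ = interp B ξ := by
  obtain ⟨C, h1, h2⟩ := conv_common_reduct hc
  rw [← hA.interp_red h1 ξ, ← hB.interp_red h2 ξ]

/-- The abstraction lemma for candidates. -/
theorem cand_lam {CA CB : Tm S → Prop} (hCA : Cand CA) (hCB : Cand CB) :
    ∀ A : Tm S, SN A → ∀ M : Tm S, SN M →
    (∀ N, CA N → CB (inst N M)) → ∀ N, SN N → CA N →
    CB (Tm.app (Tm.lam A M) N) := by
  intro A hA
  induction hA with
  | intro A hA' ihA =>
    intro M hM
    induction hM with
    | intro M hM' ihM =>
      intro hsub N hN
      induction hN with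
      | intro N hN' ihN =>
        intro hrN
        refine hCB.neutral _ (fun _ _ h => by cases h) ?_
        intro Y hY
        cases hY with
        | beta _ _ _ => exact hsub N hrN
        | appL _ hL =>
          cases hL with
          | lamL _ h => exact ihA _ h M (Acc.intro M hM') hsub N (Acc.intro N hN') hrN
          | lamR _ h =>
            exact ihM _ h (fun X hX => hCB.step _ _ (hsub X hX) (step_subst h _)) N
              (Acc.intro N hN') hrN
        | appR _ h => exact ihN _ h (hCA.step _ _ hrN h)

theorem SN.of_pi_left {A B : Tm S} (h : SN (Tm.pi A B)) : SN A :=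
  SN.of_map (fun X => Tm.pi X B) (fun _ _ h => Step.piL _ h) _ h A rfl

end Vale.Agent.Lib.P340
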