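import Vale.Agent.Lib.P340.Subst

/-! Beta reduction: compatibility lemmas and the Church-Rosser theorem. -/

namespace Vale.Agent.Lib.P340

universe u
variable {S : Type u}

theorem step_rename {M N : Tm S} (h : Step M N) : ∀ ξ : ℕ → ℕ, Step (rename ξ M) (rename ξ N) := by
  induction h with
  | beta A M N =>
    intro ξ
    simp only [rename, rename_inst]
    exact Step.beta _ _ _
  | appL N _ ih => intro ξ; exact Step.appL _ (ih ξ)
  | appR M _ ih => intro ξ; exact Step.appR _ (ih ξ)
  | lamL M _ ih => intro ξ; exact Step.lamL _ (ih ξ)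
  | lamR A _ ih => intro ξ; exact Step.lamR _ (ih _)
  | piL B _ ih => intro ξ; exact Step.piL _ (ih ξ)
  | piR A _ ih => intro ξ; exact Step.piR _ (ih _)

theorem step_subst {M N : Tm S} (h : Step M N) : ∀ σ : ℕ → Tm S, Step (subst σ M) (subst σ N) := by
  induction h with
  | beta A M N =>
    intro σ
    simp only [subst, subst_inst]
    exact Step.beta _ _ _
  | appL N _ ih => intro σ; exact Step.appL _ (ih σ)
  | appR M _ ih => intro σ; exact Step.appR _ (ih σ)
  | lamL M _ ih => intro σ; exact Step.lamL _ (ih σ)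
  | lamR A _ ih => intro σ; exact Step.lamR _ (ih _)
  | piL B _ ih => intro σ; exact Step.piL _ (ih σ)
  | piR A _ ih => intro σ; exact Step.piR _ (ih _)

theorem red_app {M M' N N' : Tm S} (h1 : Red M M') (h2 : Red N N') :
    Red (Tm.app M N) (Tm.app M' N') := by
  have a : Red (Tm.app M N) (Tm.app M' N) := by
    induction h1 with
    | refl => exact Relation.ReflTransGen.refl
    | tail _ h ih => exact ih.tail (Step.appL _ h)
  have b : Red (Tm.app M' N) (Tm.app M' N') := by
    induction h2 with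
    | refl => exact Relation.ReflTransGen.refl
    | tail _ h ih => exact ih.tail (Step.appR _ h)
  exact a.trans b

theorem red_lam {M M' N N' : Tm S} (h1 : Red M M') (h2 : Red N N') :
    Red (Tm.lam M N) (Tm.lam M' N') := by
  have a : Red (Tm.lam M N) (Tm.lam M' N) := by
    induction h1 with
    | refl => exact Relation.ReflTransGen.refl
    | tail _ h ih => exact ih.tail (Step.lamL _ h)
  have b : Red (Tm.lam M' N) (Tm.lam M' N') := by
    induction h2 with
    | refl => exact Relation.ReflTransGen.refl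
    | tail _ h ih => exact ih.tail (Step.lamR _ h)
  exact a.trans b

theorem red_pi {M M' N N' : Tm S} (h1 : Red M M') (h2 : Red N N') :
    Red (Tm.pi M N) (Tm.pi M' N') := by
  have a : Red (Tm.pi M N) (Tm.pi M' N) := by
    induction h1 with
    | refl => exact Relation.ReflTransGen.refl
    | tail _ h ih => exact ih.tail (Step.piL _ h)
  have b : Red (Tm.pi M' N) (Tm.pi M' N') := by
    induction h2 with
    | refl => exact Relation.ReflTransGen.refl
    | tail _ h ih => exact ih.tail (Step.piR _ h)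
  exact a.trans b

/-- Parallel reduction. -/
inductive Par : Tm S → Tm S → Prop
  | var (x : ℕ) : Par (Tm.var x) (Tm.var x)
  | sort (s : S) : Par (Tm.sort s) (Tm.sort s)
  | app {M M' N N' : Tm S} : Par M M' → Par N N' → Par (Tm.app M N) (Tm.app M' N')
  | lam {A A' M M' : Tm S} : Par A A' → Par M M' → Par (Tm.lam A M) (Tm.lam A' M')
  | pi {A A' M M' : Tm S} : Par A A' → Par M M' → Par (Tm.pi A M) (Tm.pi A' M')
  | beta (A : Tm S) {M M' N N' : Tm S} : Par M M' → Par N N' →
      Par (Tm.app (Tm.lam A M) N) (inst N' M')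

theorem par_refl (M : Tm S) : Par M M := by
  induction M with
  | var x => exact Par.var x
  | sort s => exact Par.sort s
  | app M N ihM ihN => exact Par.app ihM ihN
  | lam A M ihA ihM => exact Par.lam ihA ihM
  | pi A M ihA ihM => exact Par.pi ihA ihM

theorem par_of_step {M N : Tm S} (h : Step M N) : Par M N := by
  induction h with
  | beta A M N => exact Par.beta A (par_refl _) (par_refl _)
  | appL N _ ih => exact Par.app ih (par_refl _)
  | appR M _ ih => exact Par.app (par_refl _) ih
  | lamL M _ ih => exact Par.lam ih (par_refl _)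
  | lamR A _ ih => exact Par.lam (par_refl _) ih
  | piL B _ ih => exact Par.pi ih (par_refl _)
  | piR A _ ih => exact Par.pi (par_refl _) ih

theorem red_of_par {M N : Tm S} (h : Par M N) : Red M N := by
  induction h with
  | var x => exact Relation.ReflTransGen.refl
  | sort s => exact Relation.ReflTransGen.refl
  | app _ _ ih1 ih2 => exact red_app ih1 ih2
  | lam _ _ ih1 ih2 => exact red_lam ih1 ih2
  | pi _ _ ih1 ih2 => exact red_pi ih1 ih2
  | beta A _ _ ih1 ih2 =>
    exact (red_app (red_lam Relation.ReflTransGen.refl ih1) ih2).tail (Step.beta _ _ _)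

theorem par_rename {M N : Tm S} (h : Par M N) : ∀ ξ : ℕ → ℕ, Par (rename ξ M) (rename ξ N) := by
  induction h with
  | var x => intro ξ; exact Par.var _
  | sort s => intro ξ; exact Par.sort _
  | app _ _ ih1 ih2 => intro ξ; exact Par.app (ih1 ξ) (ih2 ξ)
  | lam _ _ ih1 ih2 => intro ξ; exact Par.lam (ih1 ξ) (ih2 _)
  | pi _ _ ih1 ih2 => intro ξ; exact Par.pi (ih1 ξ) (ih2 _)
  | beta A _ _ ih1 ih2 =>
    intro ξ
    simp only [rename, rename_inst]
    exact Par.beta _ (ih1 _) (ih2 ξ)

theorem par_ups {σ τ : ℕ → Tm S} (h : ∀ x, Par (σ x) (τ x)) : ∀ x, Par (ups σ x) (ups τ x) := by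
  intro x
  cases x with
  | zero => exact Par.var 0
  | succ n => exact par_rename (h n) _

theorem par_subst {M N : Tm S} (h : Par M N) : ∀ σ τ : ℕ → Tm S, (∀ x, Par (σ x) (τ x)) →
    Par (subst σ M) (subst τ N) := by
  induction h with
  | var x => intro σ τ h; exact h x
  | sort s => intro σ τ _; exact Par.sort _
  | app _ _ ih1 ih2 => intro σ τ h; exact Par.app (ih1 σ τ h) (ih2 σ τ h)
  | lam _ _ ih1 ih2 => intro σ τ h; exact Par.lam (ih1 σ τ h) (ih2 _ _ (par_ups h))
  | pi _ _ ih1 ih2 => intro σ τ h; exact Par.pi (ih1 σ τ h) (ih2 _ _ (par_ups h))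
  | beta A _ _ ih1 ih2 =>
    intro σ τ h
    simp only [subst, subst_inst]
    exact Par.beta _ (ih1 _ _ (par_ups h)) (ih2 σ τ h)

theorem par_inst {M M' N N' : Tm S} (h1 : Par M M') (h2 : Par N N') :
    Par (inst N M) (inst N' M') := by
  refine par_subst h1 _ _ ?_
  intro x
  cases x with
  | zero => exact h2
  | succ n => exact Par.var n

theorem par_diamond {M N1 : Tm S} (h1 : Par M N1) : ∀ N2, Par M N2 →
    ∃ P, Par N1 P ∧ Par N2 P := by
  induction h1 with
  | var x => intro N2 h2; exact ⟨N2, h2, par_refl _⟩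
  | sort s => intro N2 h2; exact ⟨N2, h2, par_refl _⟩
  | lam _ _ ih1 ih2 =>
    intro N2 h2
    cases h2 with
    | lam ha hb =>
      obtain ⟨P1, p1, q1⟩ := ih1 _ ha
      obtain ⟨P2, p2, q2⟩ := ih2 _ hb
      exact ⟨_, Par.lam p1 p2, Par.lam q1 q2⟩
  | pi _ _ ih1 ih2 =>
    intro N2 h2
    cases h2 with
    | pi ha hb =>
      obtain ⟨P1, p1, q1⟩ := ih1 _ ha
      obtain ⟨P2, p2, q2⟩ := ih2 _ hb
      exact ⟨_, Par.pi p1 p2, Par.pi q1 q2⟩
  | app hM hN ih1 ih2 =>
    intro N2 h2
    cases h2 with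
    | app ha hb =>
      obtain ⟨P1, p1, q1⟩ := ih1 _ ha
      obtain ⟨P2, p2, q2⟩ := ih2 _ hb
      exact ⟨_, Par.app p1 p2, Par.app q1 q2⟩
    | beta A ha hb =>
      obtain ⟨P1, p1, q1⟩ := ih1 _ (Par.lam (par_refl A) ha)
      obtain ⟨P2, p2, q2⟩ := ih2 _ hb
      cases hM with
      | lam hA0 hM0 =>
        cases q1 with
        | lam qa qb =>
          cases p1 with
          | lam pa pb =>
            exact ⟨_, Par.beta _ pb p2, par_inst qb q2⟩
  | beta A hM hN ih1 ih2 =>
    intro N2 h2
    cases h2 with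
    | app ha hb =>
      cases ha with
      | lam ha1 ha2 =>
        obtain ⟨P1, p1, q1⟩ := ih1 _ ha2
        obtain ⟨P2, p2, q2⟩ := ih2 _ hb
        exact ⟨_, par_inst p1 p2, Par.beta _ q1 q2⟩
    | beta _ ha hb =>
      obtain ⟨P1, p1, q1⟩ := ih1 _ ha
      obtain ⟨P2, p2, q2⟩ := ih2 _ hb
      exact ⟨_, par_inst p1 p2, par_inst q1 q2⟩

theorem red_iff_par_star {M N : Tm S} : Red M N ↔ Relation.ReflTransGen Par M N := by
  constructor
  · intro h
    exact Relation.ReflTransGen.mono (fun _ _ h => par_of_step h) _ _ h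
  · intro h
    induction h with
    | refl => exact Relation.ReflTransGen.refl
    | tail _ h ih => exact ih.trans (red_of_par h)

/-- Confluence of beta reduction. -/
theorem red_confluent {M N1 N2 : Tm S} (h1 : Red M N1) (h2 : Red M N2) :
    ∃ P, Red N1 P ∧ Red N2 P := by
  have key := Relation.church_rosser (r := (Par : Tm S → Tm S → Prop))
    (fun a b c hab hac => by
      obtain ⟨d, hbd, hcd⟩ := par_diamond hab c hac
      exact ⟨d, Relation.ReflGen.single hbd, Relation.ReflTransGen.single hcd⟩)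
    (red_iff_par_star.1 h1) (red_iff_par_star.1 h2)
  obtain ⟨P, p, q⟩ := key
  exact ⟨P, red_iff_par_star.2 p, red_iff_par_star.2 q⟩

/-- Church-Rosser: convertible expressions have a common reduct. -/
theorem conv_common_reduct {M N : Tm S} (h : Conv M N) : ∃ P, Red M P ∧ Red N P := by
  induction h with
  | rel _ _ h => exact ⟨_, Relation.ReflTransGen.single h, Relation.ReflTransGen.refl⟩
  | refl _ => exact ⟨_, Relation.ReflTransGen.refl, Relation.ReflTransGen.refl⟩
  | symm _ _ _ ih =>
    obtain ⟨P, p, q⟩ := ih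
    exact ⟨P, q, p⟩
  | trans _ _ _ _ _ ih1 ih2 =>
    obtain ⟨P, p, q⟩ := ih1
    obtain ⟨Q, p', q'⟩ := ih2
    obtain ⟨R, r, r'⟩ := red_confluent q p'
    exact ⟨R, p.trans r, q'.trans r'⟩

end Vale.Agent.Lib.P340
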