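import Mathlib

/-!
# Pure type systems (de Bruijn presentation)

Raw expressions, beta reduction, the seven typing rules, legality,
weak and strong normalization of a specification.
-/

namespace Vale.Agent.Lib.P340

universe u

/-- Raw expressions over a set `S` of sorts; variables are de Bruijn indices.
`lam A M` is the abstraction with domain `A`, `pi A B` the product with domain `A`. -/
inductive Tm (S : Type u) : Type u
  | var : ℕ → Tm S
  | sort : S → Tm S
  | app : Tm S → Tm S → Tm S
  | lam : Tm S → Tm S → Tm S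
  | pi : Tm S → Tm S → Tm S

/-- Extend a stream by a new head. -/
def scons {α : Type*} (a : α) (f : ℕ → α) : ℕ → α
  | 0 => a
  | n + 1 => f n

variable {S : Type u}

/-- Push a renaming under a binder. -/
def upr (ξ : ℕ → ℕ) : ℕ → ℕ := scons 0 (fun n => ξ n + 1)

/-- Renaming of the free variables. -/
def rename : (ℕ → ℕ) → Tm S → Tm S
  | ξ, Tm.var x => Tm.var (ξ x)
  | _, Tm.sort s => Tm.sort s
  | ξ, Tm.app M N => Tm.app (rename ξ M) (rename ξ N)
  | ξ, Tm.lam A M => Tm.lam (rename ξ A) (rename (upr ξ) M)
  | ξ, Tm.pi A B => Tm.pi (rename ξ A) (rename (upr ξ) B)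

/-- Shift all free variables by one (weakening). -/
def lift (M : Tm S) : Tm S := rename Nat.succ M

/-- Push a substitution under a binder. -/
def ups (σ : ℕ → Tm S) : ℕ → Tm S := scons (Tm.var 0) (fun n => lift (σ n))

/-- Simultaneous capture-avoiding substitution. -/
def subst : (ℕ → Tm S) → Tm S → Tm S
  | σ, Tm.var x => σ x
  | _, Tm.sort s => Tm.sort s
  | σ, Tm.app M N => Tm.app (subst σ M) (subst σ N)
  | σ, Tm.lam A M => Tm.lam (subst σ A) (subst (ups σ) M)
  | σ, Tm.pi A B => Tm.pi (subst σ A) (subst (ups σ) B)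

/-- `inst N M` is `M[0 := N]`: the variable `0` is replaced by `N`, the others are lowered. -/
def inst (N M : Tm S) : Tm S := subst (scons N Tm.var) M

/-- One step of beta reduction: the compatible closure of
`(lam A M) N ~> M[0 := N]`, steps being allowed in every subexpression,
domains of abstractions and products included. -/
inductive Step : Tm S → Tm S → Prop
  | beta (A M N : Tm S) : Step (Tm.app (Tm.lam A M) N) (inst N M)
  | appL {M M' : Tm S} (N : Tm S) : Step M M' → Step (Tm.app M N) (Tm.app M' N)
  | appR (M : Tm S) {N N' : Tm S} : Step N N' → Step (Tm.app M N) (Tm.app M N')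
  | lamL {A A' : Tm S} (M : Tm S) : Step A A' → Step (Tm.lam A M) (Tm.lam A' M)
  | lamR (A : Tm S) {M M' : Tm S} : Step M M' → Step (Tm.lam A M) (Tm.lam A M')
  | piL {A A' : Tm S} (B : Tm S) : Step A A' → Step (Tm.pi A B) (Tm.pi A' B)
  | piR (A : Tm S) {B B' : Tm S} : Step B B' → Step (Tm.pi A B) (Tm.pi A B')

/-- Many-step beta reduction. -/
def Red : Tm S → Tm S → Prop := Relation.ReflTransGen Step

/-- Beta conversion: the equivalence relation generated by `Step`. -/
def Conv : Tm S → Tm S → Prop := Relation.EqvGen Step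

/-- A pure type specification over the set `S` of sorts:
axioms `ax s1 s2` and rules `rule s1 s2 s3`. -/
structure Spec (S : Type u) where
  ax : S → S → Prop
  rule : S → S → S → Prop

/-- The typing relation `Γ ⊢ M : B` of the specification `P` (seven rules).
A context is a list of types, the most recently declared variable first. -/
inductive Typ (P : Spec S) : List (Tm S) → Tm S → Tm S → Prop
  | ax {s1 s2 : S} : P.ax s1 s2 → Typ P [] (Tm.sort s1) (Tm.sort s2)
  | var {Γ : List (Tm S)} {A : Tm S} {s : S} :
      Typ P Γ A (Tm.sort s) → Typ P (A :: Γ) (Tm.var 0) (lift A)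
  | weak {Γ : List (Tm S)} {M B A : Tm S} {s : S} :
      Typ P Γ M B → Typ P Γ A (Tm.sort s) → Typ P (A :: Γ) (lift M) (lift B)
  | pi {Γ : List (Tm S)} {A B : Tm S} {s1 s2 s3 : S} :
      P.rule s1 s2 s3 → Typ P Γ A (Tm.sort s1) → Typ P (A :: Γ) B (Tm.sort s2) →
      Typ P Γ (Tm.pi A B) (Tm.sort s3)
  | lam {Γ : List (Tm S)} {A M B : Tm S} {s : S} :
      Typ P (A :: Γ) M B → Typ P Γ (Tm.pi A B) (Tm.sort s) →
      Typ P Γ (Tm.lam A M) (Tm.pi A B)
  | app {Γ : List (Tm S)} {M N A B : Tm S} :
      Typ P Γ M (Tm.pi A B) → Typ P Γ N A → Typ P Γ (Tm.app M N) (inst N B)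
  | conv {Γ : List (Tm S)} {M A B : Tm S} {s : S} :
      Typ P Γ M A → Typ P Γ B (Tm.sort s) → Conv A B → Typ P Γ M B

/-- An expression is legal if it is the subject or the type of a derivable judgment. -/
def Legal (P : Spec S) (M : Tm S) : Prop :=
  ∃ (Γ : List (Tm S)) (N : Tm S), Typ P Γ M N ∨ Typ P Γ N M

/-- Beta normal forms. -/
def Normal (M : Tm S) : Prop := ∀ N, ¬ Step M N

/-- `M` reduces to a normal form. -/
def HasNF (M : Tm S) : Prop := ∃ N, Red M N ∧ Normal N

/-- `M` starts an infinite reduction sequence. -/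
def Diverges (M : Tm S) : Prop := ∃ f : ℕ → Tm S, f 0 = M ∧ ∀ n, Step (f n) (f (n + 1))

/-- Weak normalization of a specification. -/
def WeaklyNormalizing (P : Spec S) : Prop := ∀ M, Legal P M → HasNF M

/-- Strong normalization of a specification. -/
def StronglyNormalizing (P : Spec S) : Prop := ∀ M, Legal P M → ¬ Diverges M

end Vale.Agent.Lib.P340
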