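import Vale.Agent.Lib.P340.Reducibility

/-! Head sorts and the family discipline `TW` on raw expressions. -/

namespace Vale.Agent.Lib.P340

universe u
variable {S : Type u}

/-- The sort at the head of an expression, if any. -/
def hs : Tm S → Option S
  | Tm.var _ => none
  | Tm.sort s => some s
  | Tm.app M _ => hs M
  | Tm.lam _ M => hs M
  | Tm.pi _ B => hs B

theorem hs_rename (M : Tm S) : ∀ ξ : ℕ → ℕ, hs (rename ξ M) = hs M := by
  induction M with
  | var x => intro ξ; rfl
  | sort s => intro ξ; rfl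
  | app M N ihM _ => intro ξ; simp only [rename, hs, ihM]
  | lam A M _ ihM => intro ξ; simp only [rename, hs, ihM]
  | pi A M _ ihM => intro ξ; simp only [rename, hs, ihM]

theorem hs_lift (M : Tm S) : hs (lift M) = hs M := hs_rename M _

theorem hs_subst_some (M : Tm S) : ∀ (σ : ℕ → Tm S) (s : S), hs M = some s →
    hs (subst σ M) = some s := by
  induction M with
  | var x => intro σ s h; cases h
  | sort s => intro σ t h; exact h
  | app M N ihM _ => intro σ s h; exact ihM σ s h
  | lam A M _ ihM => intro σ s h; exact ihM _ s h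
  | pi A M _ ihM => intro σ s h; exact ihM _ s h

/-- `TW K δ B t`: the expression `B` is a well-formed family with target sort `t`, relative to the
set `K` of kind-like sorts; `δ x = some t` marks `x` as a family variable with target sort `t`. -/
inductive TW (K : S → Prop) : (ℕ → Option S) → Tm S → S → Prop
  | var {δ : ℕ → Option S} {x : ℕ} {t : S} : δ x = some t → TW K δ (Tm.var x) t
  | sort {δ : ℕ → Option S} (s : S) {t : S} : K t → TW K δ (Tm.sort s) t
  | pi {δ : ℕ → Option S} {A B : Tm S} {s1 s2 s3 : S} :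
      TW K δ A s1 → TW K (scons (hs A) δ) B s2 → ¬ (K s1 ∧ K s2) → (K s2 → K s3) →
      TW K δ (Tm.pi A B) s3
  | lam {δ : ℕ → Option S} (A : Tm S) {B : Tm S} {t : S} :
      TW K (scons none δ) B t → TW K δ (Tm.lam A B) t
  | app {δ : ℕ → Option S} {B : Tm S} (N : Tm S) {t : S} :
      TW K δ B t → TW K δ (Tm.app B N) t

variable {K : S → Prop}

theorem TW.kind {δ : ℕ → Option S} {B : Tm S} {t : S} (h : TW K δ B t) :
    hs B ≠ none → K t := by
  induction h with
  | var _ => intro h; exact absurd rfl h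
  | sort s hk => intro _; exact hk
  | pi _ _ _ hc _ ih2 => intro h; exact hc (ih2 h)
  | lam A _ ih => intro h; exact ih h
  | app N _ ih => intro h; exact ih h

theorem TW.rename {δ : ℕ → Option S} {B : Tm S} {t : S} (h : TW K δ B t) :
    ∀ (δ' : ℕ → Option S) (ξ : ℕ → ℕ), (∀ x s, δ x = some s → δ' (ξ x) = some s) →
      TW K δ' (rename ξ B) t := by
  induction h with
  | var hx => intro δ' ξ hξ; exact TW.var (hξ _ _ hx)
  | sort s hk => intro δ' ξ _; exact TW.sort s hk
  | pi _ _ hn hc ih1 ih2 =>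
    intro δ' ξ hξ
    refine TW.pi (ih1 δ' ξ hξ) (ih2 _ _ ?_) hn hc
    intro x s hx
    cases x with
    | zero => simpa [hs_rename] using hx
    | succ n => exact hξ n s hx
  | lam A _ ih =>
    intro δ' ξ hξ
    refine TW.lam _ (ih _ _ ?_)
    intro x s hx
    cases x with
    | zero => cases hx
    | succ n => exact hξ n s hx
  | app N _ ih => intro δ' ξ hξ; exact TW.app _ (ih δ' ξ hξ)

theorem TW.lift {δ : ℕ → Option S} {B : Tm S} {t : S} (h : TW K δ B t) (o : Option S) :
    TW K (scons o δ) (lift B) t :=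
  h.rename _ _ (fun _ _ h => h)

theorem TW.subst {δ : ℕ → Option S} {B : Tm S} {t : S} (h : TW K δ B t) :
    ∀ (δ' : ℕ → Option S) (σ : ℕ → Tm S), (∀ x s, δ x = some s → TW K δ' (σ x) s) →
      TW K δ' (subst σ B) t := by
  induction h with
  | var hx => intro δ' σ hσ; exact hσ _ _ hx
  | sort s hk => intro δ' σ _; exact TW.sort s hk
  | @pi δ A B s1 s2 s3 _ _ hn hc ih1 ih2 =>
    intro δ' σ hσ
    refine TW.pi (ih1 δ' σ hσ) (ih2 _ _ ?_) hn hc
    intro x s hx
    cases x with
    | zero => exact TW.var (hs_subst_some A σ s hx)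
    | succ n => exact (hσ n s hx).lift _
  | lam A _ ih =>
    intro δ' σ hσ
    refine TW.lam _ (ih _ _ ?_)
    intro x s hx
    cases x with
    | zero => cases hx
    | succ n => exact (hσ n s hx).lift _
  | app N _ ih => intro δ' σ hσ; exact TW.app _ (ih δ' σ hσ)

theorem TW.hs_subst {δ : ℕ → Option S} {B : Tm S} {t : S} (h : TW K δ B t) :
    ∀ (σ : ℕ → Tm S), (∀ x s, δ x = some s → hs (σ x) = none) →
      hs (Vale.Agent.Lib.P340.subst σ B) = hs B := by
  induction h with
  | var hx => intro σ hσ; exact hσ _ _ hx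
  | sort s hk => intro σ _; rfl
  | pi _ _ _ _ _ ih2 =>
    intro σ hσ
    refine ih2 _ ?_
    intro x s hx
    cases x with
    | zero => rfl
    | succ n => simp only [ups_succ, hs_lift]; exact hσ n s hx
  | lam A _ ih =>
    intro σ hσ
    refine ih _ ?_
    intro x s hx
    cases x with
    | zero => rfl
    | succ n => simp only [ups_succ, hs_lift]; exact hσ n s hx
  | app N _ ih => intro σ hσ; exact ih σ hσ

theorem TW.pi_inv {δ : ℕ → Option S} {A B : Tm S} {t : S} (h : TW K δ (Tm.pi A B) t) :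
    ∃ s1 s2, TW K δ A s1 ∧ TW K (scons (hs A) δ) B s2 ∧ ¬ (K s1 ∧ K s2) ∧ (K s2 → K t) := by
  cases h with
  | pi h1 h2 h3 h4 => exact ⟨_, _, h1, h2, h3, h4⟩

theorem TW.inst_none {δ : ℕ → Option S} {B : Tm S} {t : S} (h : TW K (scons none δ) B t)
    (N : Tm S) : TW K δ (inst N B) t ∧ hs (inst N B) = hs B := by
  constructor
  · refine h.subst δ _ ?_
    intro x s hx
    cases x with
    | zero => cases hx
    | succ n => exact TW.var hx
  · refine h.hs_subst _ ?_
    intro x s hx
    cases x with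
    | zero => cases hx
    | succ n => rfl

/-- Reduction preserves families and their head sorts. -/
theorem TW.step {δ : ℕ → Option S} {B : Tm S} {t : S} (h : TW K δ B t) :
    ∀ B', Step B B' → TW K δ B' t ∧ hs B' = hs B := by
  induction h with
  | var _ => intro B' hs; cases hs
  | sort s _ => intro B' hs; cases hs
  | pi h1 h2 hn hc ih1 ih2 =>
    intro B' hst
    cases hst with
    | piL _ hA =>
      obtain ⟨a1, a2⟩ := ih1 _ hA
      exact ⟨TW.pi a1 (by rw [a2]; exact h2) hn hc, rfl⟩
    | piR _ hB =>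
      obtain ⟨b1, b2⟩ := ih2 _ hB
      exact ⟨TW.pi h1 b1 hn hc, b2⟩
  | lam A h1 ih =>
    intro B' hst
    cases hst with
    | lamL _ hA => exact ⟨TW.lam _ h1, rfl⟩
    | lamR _ hB =>
      obtain ⟨b1, b2⟩ := ih _ hB
      exact ⟨TW.lam _ b1, b2⟩
  | app N h1 ih =>
    intro B' hst
    cases hst with
    | beta A M0 _ =>
      cases h1 with
      | lam _ h0 => exact h0.inst_none N
    | appL _ hM =>
      obtain ⟨b1, b2⟩ := ih _ hM
      exact ⟨TW.app _ b1, b2⟩
    | appR _ hN => exact ⟨TW.app _ h1, rfl⟩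

theorem TW.red {δ : ℕ → Option S} {B B' : Tm S} {t : S} (h : TW K δ B t) (hr : Red B B') :
    TW K δ B' t ∧ hs B' = hs B := by
  induction hr with
  | refl => exact ⟨h, rfl⟩
  | tail _ hst ih =>
    obtain ⟨a1, a2⟩ := ih.1.step _ hst
    exact ⟨a1, a2.trans ih.2⟩

theorem hs_eq_of_conv {δ : ℕ → Option S} {A B : Tm S} {s t : S}
    (hA : TW K δ A s) (hB : TW K δ B t) (hc : Conv A B) : hs A = hs B := by
  obtain ⟨C, h1, h2⟩ := conv_common_reduct hc
  rw [← (hA.red h1).2, ← (hB.red h2).2]

end Vale.Agent.Lib.P340
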