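import Vale.Agent.Lib.P340.Skeleton

/-! Strong normalization of skeleton-typed expressions (Tait's method). -/

namespace Vale.Agent.Lib.P340

universe u
variable {S : Type u}

/-- Strong normalization as accessibility. -/
def SN (M : Tm S) : Prop := Acc (fun a b => Step b a) M

theorem SN.intro {M : Tm S} (h : ∀ N, Step M N → SN N) : SN M := Acc.intro M h

theorem SN.step {M N : Tm S} (h : SN M) (hs : Step M N) : SN N := Acc.inv h hs

theorem SN.not_diverges {M : Tm S} (h : SN M) : ¬ Diverges M := by
  induction h with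
  | intro M _ ih =>
    rintro ⟨f, hf0, hf⟩
    refine ih (f 1) (by rw [← hf0]; exact hf 0) ⟨fun n => f (n + 1), rfl, fun n => hf (n + 1)⟩

/-- If `F` maps steps to steps then strong normalization of `F M` gives that of `M`. -/
theorem SN.of_map (F : Tm S → Tm S) (hF : ∀ M N, Step M N → Step (F M) (F N)) :
    ∀ X, SN X → ∀ M, X = F M → SN M := by
  intro X hX
  induction hX with
  | intro X _ ih =>
    intro M hM
    subst hM
    exact SN.intro (fun N hN => ih _ (hF _ _ hN) N rfl)

theorem SN.of_app {M N : Tm S} (h : SN (Tm.app M N)) : SN M :=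
  SN.of_map (fun X => Tm.app X N) (fun _ _ h => Step.appL _ h) _ h M rfl

theorem SN.of_inst {M N : Tm S} (h : SN (inst N M)) : SN M :=
  SN.of_map (fun X => inst N X) (fun _ _ h => step_subst h _) _ h M rfl

theorem SN.var (x : ℕ) : SN (Tm.var x : Tm S) := SN.intro (fun _ h => by cases h)

theorem SN.sort (s : S) : SN (Tm.sort s : Tm S) := SN.intro (fun _ h => by cases h)

theorem SN.pi {A : Tm S} (hA : SN A) : ∀ {B : Tm S}, SN B → SN (Tm.pi A B) := by
  induction hA with
  | intro A hA' ihA =>
    intro B hB
    induction hB with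
    | intro B hB' ihB =>
      refine SN.intro (fun N hN => ?_)
      cases hN with
      | piL _ h => exact ihA _ h (Acc.intro B hB')
      | piR _ h => exact ihB _ h

/-- Reducibility candidates indexed by simple types. -/
def Redu : Sk S → Tm S → Prop
  | Sk.base _, M => SN M
  | Sk.arr σ τ, M => ∀ N, Redu σ N → Redu τ (Tm.app M N)

/-- Expressions that are not abstractions. -/
def Neutral (M : Tm S) : Prop := ∀ A N, M ≠ Tm.lam A N

theorem redu_props (σ : Sk S) :
    (∀ M, Redu σ M → SN M) ∧
    (∀ M N, Redu σ M → Step M N → Redu σ N) ∧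
    (∀ M, Neutral M → (∀ N, Step M N → Redu σ N) → Redu σ M) := by
  induction σ with
  | base b =>
    exact ⟨fun _ h => h, fun _ _ h hs => SN.step h hs, fun _ _ h => SN.intro h⟩
  | arr σ τ ihσ ihτ =>
    obtain ⟨s1, s2, s3⟩ := ihσ
    obtain ⟨t1, t2, t3⟩ := ihτ
    refine ⟨?_, ?_, ?_⟩
    · intro M h
      have hv : Redu σ (Tm.var 0) := s3 _ (fun _ _ h => by cases h) (fun _ h => by cases h)
      exact SN.of_app (t1 _ (h _ hv))
    · intro M N h hs X hX
      exact t2 _ _ (h X hX) (Step.appL _ hs)
    · intro M hn h X hX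
      have hsn : SN X := s1 _ hX
      induction hsn with
      | intro X _ ih =>
        refine t3 _ (fun _ _ h => by cases h) ?_
        intro Y hY
        cases hY with
        | beta A M0 _ => exact absurd rfl (hn A M0)
        | appL _ hM => exact h _ hM X hX
        | appR _ hN => exact ih _ hN (s2 _ _ hX hN)

theorem Redu.sn {σ : Sk S} {M : Tm S} (h : Redu σ M) : SN M := (redu_props σ).1 M h

theorem Redu.step {σ : Sk S} {M N : Tm S} (h : Redu σ M) (hs : Step M N) : Redu σ N :=
  (redu_props σ).2.1 M N h hs

theorem Redu.of_neutral {σ : Sk S} {M : Tm S} (hn : Neutral M)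
    (h : ∀ N, Step M N → Redu σ N) : Redu σ M := (redu_props σ).2.2 M hn h

theorem Redu.var (σ : Sk S) (x : ℕ) : Redu σ (Tm.var x) :=
  Redu.of_neutral (fun _ _ h => by cases h) (fun _ h => by cases h)

theorem redu_lam (σ τ : Sk S) : ∀ A : Tm S, SN A → ∀ M : Tm S, SN M →
    (∀ N, Redu σ N → Redu τ (inst N M)) → ∀ N, SN N → Redu σ N →
    Redu τ (Tm.app (Tm.lam A M) N) := by
  intro A hA
  induction hA with
  | intro A hA' ihA =>
    intro M hM
    induction hM with
    | intro M hM' ihM =>
      intro hsub N hN
      induction hN with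
      | intro N hN' ihN =>
        intro hrN
        refine Redu.of_neutral (fun _ _ h => by cases h) ?_
        intro Y hY
        cases hY with
        | beta _ _ _ => exact hsub N hrN
        | appL _ hL =>
          cases hL with
          | lamL _ h => exact ihA _ h M (Acc.intro M hM') hsub N (Acc.intro N hN') hrN
          | lamR _ h =>
            exact ihM _ h (fun X hX => (hsub X hX).step (step_subst h _)) N (Acc.intro N hN') hrN
        | appR _ h => exact ihN _ h (hrN.step h)

/-- The fundamental lemma. -/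
theorem styp_redu {Δ : ℕ → Sk S} {M : Tm S} {σ : Sk S} (h : STyp Δ M σ) :
    ∀ γ : ℕ → Tm S, (∀ x, Redu (Δ x) (γ x)) → Redu σ (subst γ M) := by
  induction h with
  | var Δ x => intro γ hγ; exact hγ x
  | sort Δ s s' => intro γ _; exact SN.sort s
  | @pi Δ A B s1 s2 s3 _ _ _ ih1 ih3 =>
    intro γ hγ
    have a : SN (subst γ A) := ih1 γ hγ
    have b : SN (subst (scons (Tm.var 0) γ) B) := ih3 _ (by
      intro x
      cases x with
      | zero => exact Redu.var _ _
      | succ n => exact hγ n)
    rw [← inst_subst_ups] at b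
    exact SN.pi a b.of_inst
  | @lam Δ A M s1 τ _ _ _ ih1 ih3 =>
    intro γ hγ
    have a : SN (subst γ A) := ih1 γ hγ
    have hsub : ∀ N, Redu (sk A) N → Redu τ (inst N (subst (ups γ) M)) := by
      intro N hN
      rw [inst_subst_ups]
      refine ih3 _ ?_
      intro x
      cases x with
      | zero => exact hN
      | succ n => exact hγ n
    have b : SN (subst (ups γ) M) := (hsub _ (Redu.var _ 0)).sn.of_inst
    intro N hN
    exact redu_lam _ _ _ a _ b hsub N hN.sn hN
  | app _ _ _ ih1 ih2 =>
    intro γ hγ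
    exact ih1 γ hγ _ (ih2 γ hγ)

/-- Skeleton-typed expressions are strongly normalizing. -/
theorem styp_sn {Δ : ℕ → Sk S} {M : Tm S} {σ : Sk S} (h : STyp Δ M σ) : SN M := by
  have := (styp_redu h Tm.var (fun x => Redu.var _ x)).sn
  rwa [subst_var] at this

end Vale.Agent.Lib.P340
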