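import Vale.Agent.Lib.P340.Confluence

/-! Simple-type skeletons of raw expressions and the skeleton typing system. -/

namespace Vale.Agent.Lib.P340

universe u
variable {S : Type u}

/-- Simple types over the base types `Option S`. -/
inductive Sk (S : Type u) : Type u
  | base : Option S → Sk S
  | arr : Sk S → Sk S → Sk S

/-- The base type at the end of a simple type. -/
def Sk.tgt : Sk S → Option S
  | Sk.base b => b
  | Sk.arr _ τ => Sk.tgt τ

/-- The skeleton of an expression read as a type. -/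
def sk : Tm S → Sk S
  | Tm.var _ => Sk.base none
  | Tm.sort s => Sk.base (some s)
  | Tm.app M _ => sk M
  | Tm.lam _ M => sk M
  | Tm.pi A B => Sk.arr (sk A) (sk B)

/-- Skeleton typing. -/
inductive STyp : (ℕ → Sk S) → Tm S → Sk S → Prop
  | var (Δ : ℕ → Sk S) (x : ℕ) : STyp Δ (Tm.var x) (Δ x)
  | sort (Δ : ℕ → Sk S) (s s' : S) : STyp Δ (Tm.sort s) (Sk.base (some s'))
  | pi {Δ : ℕ → Sk S} {A B : Tm S} {s1 s2 : S} (s3 : S) :
      STyp Δ A (Sk.base (some s1)) → (sk A).tgt = none →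
      STyp (scons (sk A) Δ) B (Sk.base (some s2)) → STyp Δ (Tm.pi A B) (Sk.base (some s3))
  | lam {Δ : ℕ → Sk S} {A M : Tm S} {s1 : S} {τ : Sk S} :
      STyp Δ A (Sk.base (some s1)) → (sk A).tgt = none →
      STyp (scons (sk A) Δ) M τ → STyp Δ (Tm.lam A M) (Sk.arr (sk A) τ)
  | app {Δ : ℕ → Sk S} {M N : Tm S} {σ τ : Sk S} :
      STyp Δ M (Sk.arr σ τ) → STyp Δ N σ → σ.tgt = none → STyp Δ (Tm.app M N) τ

theorem sk_rename (M : Tm S) : ∀ ξ : ℕ → ℕ, sk (rename ξ M) = sk M := by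
  induction M with
  | var x => intro ξ; rfl
  | sort s => intro ξ; rfl
  | app M N ihM _ => intro ξ; simp only [rename, sk, ihM]
  | lam A M _ ihM => intro ξ; simp only [rename, sk, ihM]
  | pi A M ihA ihM => intro ξ; simp only [rename, sk, ihA, ihM]

theorem sk_lift (M : Tm S) : sk (lift M) = sk M := sk_rename M _

theorem STyp.pi_inv {Δ : ℕ → Sk S} {A B : Tm S} {ρ : Sk S} (h : STyp Δ (Tm.pi A B) ρ) :
    ∃ s1 s2 s3, ρ = Sk.base (some s3) ∧ STyp Δ A (Sk.base (some s1)) ∧ (sk A).tgt = none ∧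
      STyp (scons (sk A) Δ) B (Sk.base (some s2)) := by
  cases h with
  | pi s3 h1 h2 h3 => exact ⟨_, _, s3, rfl, h1, h2, h3⟩

theorem STyp.lam_inv {Δ : ℕ → Sk S} {A M : Tm S} {ρ : Sk S} (h : STyp Δ (Tm.lam A M) ρ) :
    ∃ s1 τ, ρ = Sk.arr (sk A) τ ∧ STyp Δ A (Sk.base (some s1)) ∧ (sk A).tgt = none ∧
      STyp (scons (sk A) Δ) M τ := by
  cases h with
  | lam h1 h2 h3 => exact ⟨_, _, rfl, h1, h2, h3⟩

theorem STyp.app_inv {Δ : ℕ → Sk S} {M N : Tm S} {τ : Sk S} (h : STyp Δ (Tm.app M N) τ) :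
    ∃ σ, STyp Δ M (Sk.arr σ τ) ∧ STyp Δ N σ ∧ σ.tgt = none := by
  cases h with
  | app h1 h2 h3 => exact ⟨_, h1, h2, h3⟩

theorem STyp.rename {Δ : ℕ → Sk S} {M : Tm S} {σ : Sk S} (h : STyp Δ M σ) :
    ∀ (Δ' : ℕ → Sk S) (ξ : ℕ → ℕ), (∀ x, Δ' (ξ x) = Δ x) → STyp Δ' (rename ξ M) σ := by
  induction h with
  | var Δ x =>
    intro Δ' ξ hξ
    rw [← hξ x]
    exact STyp.var _ _
  | sort Δ s s' => intro Δ' ξ _; exact STyp.sort _ _ _
  | pi s3 _ h2 _ ih1 ih3 =>
    intro Δ' ξ hξ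
    refine STyp.pi s3 (ih1 Δ' ξ hξ) (by rw [sk_rename]; exact h2) (ih3 _ _ ?_)
    intro x
    cases x with
    | zero => simp [sk_rename]
    | succ n => simp [hξ n]
  | @lam Δ A M s1 τ _ h2 _ ih1 ih3 =>
    intro Δ' ξ hξ
    have := STyp.lam (ih1 Δ' ξ hξ) (by rw [sk_rename]; exact h2) (ih3 (scons (sk (Vale.Agent.Lib.P340.rename ξ A)) Δ') (upr ξ) ?_)
    · rw [sk_rename] at this
      exact this
    · intro x
      cases x with
      | zero => simp [sk_rename]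
      | succ n => simp [hξ n]
  | app _ _ h3 ih1 ih2 =>
    intro Δ' ξ hξ
    exact STyp.app (ih1 Δ' ξ hξ) (ih2 Δ' ξ hξ) h3

theorem STyp.lift {Δ : ℕ → Sk S} {M : Tm S} {σ : Sk S} (h : STyp Δ M σ) (ρ : Sk S) :
    STyp (scons ρ Δ) (lift M) σ :=
  h.rename _ _ (fun _ => rfl)

/-- Substitution lemma.  Variables whose skeleton type ends in a sort are only renamed. -/
theorem STyp.subst {Δ : ℕ → Sk S} {M : Tm S} {σ : Sk S} (h : STyp Δ M σ) :
    ∀ (Δ' : ℕ → Sk S) (γ : ℕ → Tm S), (∀ x, STyp Δ' (γ x) (Δ x)) →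
      (∀ x, (Δ x).tgt ≠ none → ∃ y, γ x = Tm.var y) →
      STyp Δ' (subst γ M) σ ∧ (σ.tgt ≠ none → sk (subst γ M) = sk M) := by
  induction h with
  | var Δ x =>
    intro Δ' γ h1 h2
    refine ⟨h1 x, fun hx => ?_⟩
    obtain ⟨y, hy⟩ := h2 x hx
    simp only [Vale.Agent.Lib.P340.subst, hy, sk]
  | sort Δ s s' => intro Δ' γ _ _; exact ⟨STyp.sort _ _ _, fun _ => rfl⟩
  | @pi Δ A B s1 s2 s3 _ h2 _ ih1 ih3 =>
    intro Δ' γ g1 g2
    obtain ⟨a1, a2⟩ := ih1 Δ' γ g1 g2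
    have a2 := a2 (by simp [Sk.tgt])
    obtain ⟨b1, b2⟩ := ih3 (scons (sk A) Δ') (ups γ) (by
        intro x
        cases x with
        | zero => exact STyp.var _ 0
        | succ n => exact (g1 n).lift _) (by
        intro x hx
        cases x with
        | zero => exact ⟨0, rfl⟩
        | succ n =>
          obtain ⟨y, hy⟩ := g2 n hx
          exact ⟨y + 1, by simp only [ups_succ, hy]; rfl⟩)
    have b2 := b2 (by simp [Sk.tgt])
    refine ⟨STyp.pi s3 a1 (by rw [a2]; exact h2) (by rw [a2]; exact b1), fun _ => ?_⟩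
    simp only [Vale.Agent.Lib.P340.subst, sk, a2, b2]
  | @lam Δ A M s1 τ _ h2 _ ih1 ih3 =>
    intro Δ' γ g1 g2
    obtain ⟨a1, a2⟩ := ih1 Δ' γ g1 g2
    have a2 := a2 (by simp [Sk.tgt])
    obtain ⟨b1, b2⟩ := ih3 (scons (sk A) Δ') (ups γ) (by
        intro x
        cases x with
        | zero => exact STyp.var _ 0
        | succ n => exact (g1 n).lift _) (by
        intro x hx
        cases x with
        | zero => exact ⟨0, rfl⟩
        | succ n =>
          obtain ⟨y, hy⟩ := g2 n hx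
          exact ⟨y + 1, by simp only [ups_succ, hy]; rfl⟩)
    have key := STyp.lam a1 (by rw [a2]; exact h2) (by rw [a2]; exact b1)
    rw [a2] at key
    refine ⟨key, fun ht => ?_⟩
    simp only [Vale.Agent.Lib.P340.subst, sk]
    exact b2 ht
  | app _ _ h3 ih1 ih2 =>
    intro Δ' γ g1 g2
    obtain ⟨a1, a2⟩ := ih1 Δ' γ g1 g2
    obtain ⟨b1, _⟩ := ih2 Δ' γ g1 g2
    refine ⟨STyp.app a1 b1 h3, fun ht => ?_⟩
    simp only [Vale.Agent.Lib.P340.subst, sk]
    exact a2 ht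

theorem STyp.inst {Δ : ℕ → Sk S} {M N : Tm S} {ρ σ : Sk S}
    (h : STyp (scons ρ Δ) M σ) (hN : STyp Δ N ρ) (hρ : ρ.tgt = none) :
    STyp Δ (inst N M) σ ∧ (σ.tgt ≠ none → sk (inst N M) = sk M) := by
  refine h.subst Δ (scons N Tm.var) ?_ ?_
  · intro x
    cases x with
    | zero => exact hN
    | succ n => exact STyp.var _ n
  · intro x hx
    cases x with
    | zero => exact absurd hρ hx
    | succ n => exact ⟨n, rfl⟩

/-- Subject reduction for skeleton typing, and invariance of the skeleton. -/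
theorem STyp.step {Δ : ℕ → Sk S} {M : Tm S} {σ : Sk S} (h : STyp Δ M σ) :
    ∀ N, Step M N → STyp Δ N σ ∧ (σ.tgt ≠ none → sk N = sk M) := by
  induction h with
  | var Δ x => intro N hs; cases hs
  | sort Δ s s' => intro N hs; cases hs
  | @pi Δ A B s1 s2 s3 h1 h2 h3 ih1 ih3 =>
    intro N hs
    cases hs with
    | piL _ hA =>
      obtain ⟨a1, a2⟩ := ih1 _ hA
      have a2 := a2 (by simp [Sk.tgt])
      refine ⟨STyp.pi s3 a1 (by rw [a2]; exact h2) (by rw [a2]; exact h3), fun _ => ?_⟩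
      simp only [sk, a2]
    | piR _ hB =>
      obtain ⟨b1, b2⟩ := ih3 _ hB
      have b2 := b2 (by simp [Sk.tgt])
      refine ⟨STyp.pi s3 h1 h2 b1, fun _ => ?_⟩
      simp only [sk, b2]
  | @lam Δ A M s1 τ h1 h2 h3 ih1 ih3 =>
    intro N hs
    cases hs with
    | lamL _ hA =>
      obtain ⟨a1, a2⟩ := ih1 _ hA
      have a2 := a2 (by simp [Sk.tgt])
      have key := STyp.lam a1 (by rw [a2]; exact h2) (by rw [a2]; exact h3)
      rw [a2] at key
      exact ⟨key, fun _ => rfl⟩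
    | lamR _ hM =>
      obtain ⟨b1, b2⟩ := ih3 _ hM
      exact ⟨STyp.lam h1 h2 b1, fun ht => by simp only [sk]; exact b2 ht⟩
  | @app Δ M N0 σ τ h1 h2 h3 ih1 ih2 =>
    intro N hs
    cases hs with
    | beta A M0 _ =>
      obtain ⟨s1, τ', he, _, _, hM0⟩ := h1.lam_inv
      injection he with he1 he2
      subst he1 he2
      obtain ⟨c1, c2⟩ := hM0.inst h2 h3
      exact ⟨c1, fun ht => by simp only [sk]; exact c2 ht⟩
    | appL _ hM =>
      obtain ⟨a1, a2⟩ := ih1 _ hM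
      exact ⟨STyp.app a1 h2 h3, fun ht => by simp only [sk]; exact a2 ht⟩
    | appR _ hN =>
      obtain ⟨b1, _⟩ := ih2 _ hN
      exact ⟨STyp.app h1 b1 h3, fun _ => rfl⟩

theorem STyp.red {Δ : ℕ → Sk S} {M N : Tm S} {σ : Sk S} (h : STyp Δ M σ) (hr : Red M N) :
    STyp Δ N σ ∧ (σ.tgt ≠ none → sk N = sk M) := by
  induction hr with
  | refl => exact ⟨h, fun _ => rfl⟩
  | tail _ hs ih =>
    obtain ⟨a1, a2⟩ := ih.1.step _ hs
    exact ⟨a1, fun ht => (a2 ht).trans (ih.2 ht)⟩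

/-- Convertible expressions that are skeleton-typed at sort-ended types have equal skeletons. -/
theorem sk_eq_of_conv {Δ : ℕ → Sk S} {A B : Tm S} {σ τ : Sk S}
    (hA : STyp Δ A σ) (hB : STyp Δ B τ) (hσ : σ.tgt ≠ none) (hτ : τ.tgt ≠ none)
    (hc : Conv A B) : sk A = sk B := by
  obtain ⟨C, h1, h2⟩ := conv_common_reduct hc
  rw [← (hA.red h1).2 hσ, ← (hB.red h2).2 hτ]

end Vale.Agent.Lib.P340
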