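import Vale.Agent.Lib.P340.Subst

/-! Changing the set of sorts; finite support of derivations. -/

namespace Vale.Agent.Lib.P340

universe u v
variable {S : Type u} {S' : Type v}

/-- Apply a map to all the sorts of an expression. -/
def mapS (g : S → S') : Tm S → Tm S'
  | Tm.var x => Tm.var x
  | Tm.sort s => Tm.sort (g s)
  | Tm.app M N => Tm.app (mapS g M) (mapS g N)
  | Tm.lam A M => Tm.lam (mapS g A) (mapS g M)
  | Tm.pi A B => Tm.pi (mapS g A) (mapS g B)

theorem mapS_rename (g : S → S') (M : Tm S) : ∀ ξ : ℕ → ℕ,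
    mapS g (rename ξ M) = rename ξ (mapS g M) := by
  induction M with
  | var x => intro ξ; rfl
  | sort s => intro ξ; rfl
  | app M N ihM ihN => intro ξ; simp only [rename, mapS, ihM, ihN]
  | lam A M ihA ihM => intro ξ; simp only [rename, mapS, ihA, ihM]
  | pi A M ihA ihM => intro ξ; simp only [rename, mapS, ihA, ihM]

theorem mapS_lift (g : S → S') (M : Tm S) : mapS g (lift M) = lift (mapS g M) :=
  mapS_rename g M _

theorem mapS_ups (g : S → S') (σ : ℕ → Tm S) :
    (fun x => mapS g (ups σ x)) = ups (fun x => mapS g (σ x)) := by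
  funext x
  cases x with
  | zero => rfl
  | succ n => exact mapS_lift g _

theorem mapS_subst (g : S → S') (M : Tm S) : ∀ σ : ℕ → Tm S,
    mapS g (subst σ M) = subst (fun x => mapS g (σ x)) (mapS g M) := by
  induction M with
  | var x => intro σ; rfl
  | sort s => intro σ; rfl
  | app M N ihM ihN => intro σ; simp only [subst, mapS, ihM, ihN]
  | lam A M ihA ihM => intro σ; simp only [subst, mapS, ihA, ihM, mapS_ups]
  | pi A M ihA ihM => intro σ; simp only [subst, mapS, ihA, ihM, mapS_ups]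

theorem mapS_inst (g : S → S') (N M : Tm S) :
    mapS g (inst N M) = inst (mapS g N) (mapS g M) := by
  simp only [inst, mapS_subst]
  congr 1
  funext x
  cases x <;> rfl

theorem step_mapS (g : S → S') {M N : Tm S} (h : Step M N) :
    Step (mapS g M) (mapS g N) := by
  induction h with
  | beta A M N =>
    simp only [mapS, mapS_inst]
    exact Step.beta _ _ _
  | appL N _ ih => exact Step.appL _ ih
  | appR M _ ih => exact Step.appR _ ih
  | lamL M _ ih => exact Step.lamL _ ih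
  | lamR A _ ih => exact Step.lamR _ ih
  | piL B _ ih => exact Step.piL _ ih
  | piR A _ ih => exact Step.piR _ ih

theorem conv_mapS (g : S → S') {M N : Tm S} (h : Conv M N) :
    Conv (mapS g M) (mapS g N) := by
  induction h with
  | rel _ _ h => exact Relation.EqvGen.rel _ _ (step_mapS g h)
  | refl _ => exact Relation.EqvGen.refl _
  | symm _ _ _ ih => exact Relation.EqvGen.symm _ _ ih
  | trans _ _ _ _ _ ih1 ih2 => exact Relation.EqvGen.trans _ _ _ ih1 ih2

/-- A step out of `mapS g M` comes from a step out of `M`. -/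
theorem step_of_mapS (g : S → S') : ∀ (M : Tm S) (N' : Tm S'), Step (mapS g M) N' →
    ∃ N, N' = mapS g N ∧ Step M N := by
  intro M
  induction M with
  | var x => intro N' h; cases h
  | sort s => intro N' h; cases h
  | app M N ihM ihN =>
    intro N' h
    cases M with
    | lam A M0 =>
      simp only [mapS] at h
      cases h with
      | beta _ _ _ => exact ⟨inst N M0, (mapS_inst g N M0).symm, Step.beta _ _ _⟩
      | appL _ h1 =>
        obtain ⟨X, rfl, hX⟩ := ihM _ h1
        exact ⟨Tm.app X N, rfl, Step.appL _ hX⟩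
      | appR _ h1 =>
        obtain ⟨X, rfl, hX⟩ := ihN _ h1
        exact ⟨Tm.app _ X, rfl, Step.appR _ hX⟩
    | var x =>
      simp only [mapS] at h
      cases h with
      | appL _ h1 => cases h1
      | appR _ h1 =>
        obtain ⟨X, rfl, hX⟩ := ihN _ h1
        exact ⟨Tm.app _ X, rfl, Step.appR _ hX⟩
    | sort s =>
      simp only [mapS] at h
      cases h with
      | appL _ h1 => cases h1
      | appR _ h1 =>
        obtain ⟨X, rfl, hX⟩ := ihN _ h1
        exact ⟨Tm.app _ X, rfl, Step.appR _ hX⟩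
    | app M1 M2 =>
      simp only [mapS] at h
      cases h with
      | appL _ h1 =>
        obtain ⟨X, rfl, hX⟩ := ihM _ h1
        exact ⟨Tm.app X N, rfl, Step.appL _ hX⟩
      | appR _ h1 =>
        obtain ⟨X, rfl, hX⟩ := ihN _ h1
        exact ⟨Tm.app _ X, rfl, Step.appR _ hX⟩
    | pi M1 M2 =>
      simp only [mapS] at h
      cases h with
      | appL _ h1 =>
        obtain ⟨X, rfl, hX⟩ := ihM _ h1
        exact ⟨Tm.app X N, rfl, Step.appL _ hX⟩
      | appR _ h1 =>
        obtain ⟨X, rfl, hX⟩ := ihN _ h1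
        exact ⟨Tm.app _ X, rfl, Step.appR _ hX⟩
  | lam A M ihA ihM =>
    intro N' h
    simp only [mapS] at h
    cases h with
    | lamL _ h1 =>
      obtain ⟨X, rfl, hX⟩ := ihA _ h1
      exact ⟨Tm.lam X M, rfl, Step.lamL _ hX⟩
    | lamR _ h1 =>
      obtain ⟨X, rfl, hX⟩ := ihM _ h1
      exact ⟨Tm.lam A X, rfl, Step.lamR _ hX⟩
  | pi A M ihA ihM =>
    intro N' h
    simp only [mapS] at h
    cases h with
    | piL _ h1 =>
      obtain ⟨X, rfl, hX⟩ := ihA _ h1
      exact ⟨Tm.pi X M, rfl, Step.piL _ hX⟩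
    | piR _ h1 =>
      obtain ⟨X, rfl, hX⟩ := ihM _ h1
      exact ⟨Tm.pi A X, rfl, Step.piR _ hX⟩

theorem red_of_mapS (g : S → S') (M : Tm S) (N' : Tm S') (h : Red (mapS g M) N') :
    ∃ N, N' = mapS g N ∧ Red M N := by
  induction h with
  | refl => exact ⟨M, rfl, Relation.ReflTransGen.refl⟩
  | tail _ h2 ih =>
    obtain ⟨X, rfl, hX⟩ := ih
    obtain ⟨Y, rfl, hY⟩ := step_of_mapS g _ _ h2
    exact ⟨Y, rfl, hX.tail hY⟩

/-- A morphism of specifications preserves typing. -/
theorem typ_mapS {P : Spec S} {Q : Spec S'} (g : S → S')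
    (hax : ∀ a b, P.ax a b → Q.ax (g a) (g b))
    (hrule : ∀ a b c, P.rule a b c → Q.rule (g a) (g b) (g c))
    {Γ : List (Tm S)} {M A : Tm S} (h : Typ P Γ M A) :
    Typ Q (Γ.map (mapS g)) (mapS g M) (mapS g A) := by
  induction h with
  | ax h => exact Typ.ax (hax _ _ h)
  | var _ ih =>
    simp only [List.map_cons, mapS_lift]
    exact Typ.var ih
  | weak _ _ ih1 ih2 =>
    simp only [List.map_cons, mapS_lift]
    exact Typ.weak ih1 ih2
  | pi hr _ _ ih1 ih2 => exact Typ.pi (hrule _ _ _ hr) ih1 ih2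
  | lam _ _ ih1 ih2 => exact Typ.lam ih1 ih2
  | app _ _ ih1 ih2 =>
    simp only [mapS_inst]
    exact Typ.app ih1 ih2
  | conv _ _ hc ih1 ih2 => exact Typ.conv ih1 ih2 (conv_mapS g hc)

theorem legal_mapS {P : Spec S} {Q : Spec S'} (g : S → S')
    (hax : ∀ a b, P.ax a b → Q.ax (g a) (g b))
    (hrule : ∀ a b c, P.rule a b c → Q.rule (g a) (g b) (g c))
    {M : Tm S} (h : Legal P M) : Legal Q (mapS g M) := by
  obtain ⟨Γ, N, h | h⟩ := h
  · exact ⟨_, _, Or.inl (typ_mapS g hax hrule h)⟩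
  · exact ⟨_, _, Or.inr (typ_mapS g hax hrule h)⟩

/-- The specification `P` with axioms and rules restricted to the sorts in `T`. -/
def Spec.restrict (P : Spec S) (T : Set S) : Spec S where
  ax a b := P.ax a b ∧ a ∈ T ∧ b ∈ T
  rule a b c := P.rule a b c ∧ a ∈ T ∧ b ∈ T ∧ c ∈ T

theorem Typ.mono {P Q : Spec S}
    (hax : ∀ a b, P.ax a b → Q.ax a b)
    (hrule : ∀ a b c, P.rule a b c → Q.rule a b c)
    {Γ : List (Tm S)} {M A : Tm S} (h : Typ P Γ M A) : Typ Q Γ M A := by
  induction h with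
  | ax h => exact Typ.ax (hax _ _ h)
  | var _ ih => exact Typ.var ih
  | weak _ _ ih1 ih2 => exact Typ.weak ih1 ih2
  | pi hr _ _ ih1 ih2 => exact Typ.pi (hrule _ _ _ hr) ih1 ih2
  | lam _ _ ih1 ih2 => exact Typ.lam ih1 ih2
  | app _ _ ih1 ih2 => exact Typ.app ih1 ih2
  | conv _ _ hc ih1 ih2 => exact Typ.conv ih1 ih2 hc

theorem Typ.restrict_mono {P : Spec S} {T T' : Set S} (hT : T ⊆ T')
    {Γ : List (Tm S)} {M A : Tm S} (h : Typ (P.restrict T) Γ M A) :
    Typ (P.restrict T') Γ M A :=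
  Typ.mono (P := P.restrict T) (Q := P.restrict T')
    (fun _ _ h => ⟨h.1, hT h.2.1, hT h.2.2⟩)
    (fun _ _ _ h => ⟨h.1, hT h.2.1, hT h.2.2.1, hT h.2.2.2⟩) h

/-- Every derivation uses only finitely many sorts in its axioms and rules. -/
theorem Typ.finite_support [DecidableEq S] {P : Spec S}
    {Γ : List (Tm S)} {M A : Tm S} (h : Typ P Γ M A) :
    ∃ T : Finset S, T.Nonempty ∧ Typ (P.restrict (T : Set S)) Γ M A := by
  induction h with
  | @ax s1 s2 h =>
    refine ⟨{s1, s2}, ⟨s1, by simp⟩, Typ.ax ⟨h, by simp, by simp⟩⟩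
  | var _ ih =>
    obtain ⟨T, hne, hT⟩ := ih
    exact ⟨T, hne, Typ.var hT⟩
  | weak _ _ ih1 ih2 =>
    obtain ⟨T1, hne, hT1⟩ := ih1
    obtain ⟨T2, _, hT2⟩ := ih2
    refine ⟨T1 ∪ T2, hne.mono Finset.subset_union_left, Typ.weak
      (hT1.restrict_mono (by simp)) (hT2.restrict_mono (by simp))⟩
  | @pi Γ A B s1 s2 s3 hr _ _ ih1 ih2 =>
    obtain ⟨T1, hne, hT1⟩ := ih1
    obtain ⟨T2, _, hT2⟩ := ih2
    refine ⟨T1 ∪ T2 ∪ {s1, s2, s3},
      hne.mono (Finset.subset_union_left.trans Finset.subset_union_left), Typ.pi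
      ⟨hr, by simp, by simp, by simp⟩ (hT1.restrict_mono ?_) (hT2.restrict_mono ?_)⟩
    · intro x hx; simp only [Finset.coe_union, Set.mem_union]; exact Or.inl (Or.inl hx)
    · intro x hx; simp only [Finset.coe_union, Set.mem_union]; exact Or.inl (Or.inr hx)
  | lam _ _ ih1 ih2 =>
    obtain ⟨T1, hne, hT1⟩ := ih1
    obtain ⟨T2, _, hT2⟩ := ih2
    refine ⟨T1 ∪ T2, hne.mono Finset.subset_union_left, Typ.lam
      (hT1.restrict_mono (by simp)) (hT2.restrict_mono (by simp))⟩
  | app _ _ ih1 ih2 =>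
    obtain ⟨T1, hne, hT1⟩ := ih1
    obtain ⟨T2, _, hT2⟩ := ih2
    refine ⟨T1 ∪ T2, hne.mono Finset.subset_union_left, Typ.app
      (hT1.restrict_mono (by simp)) (hT2.restrict_mono (by simp))⟩
  | conv _ _ hc ih1 ih2 =>
    obtain ⟨T1, hne, hT1⟩ := ih1
    obtain ⟨T2, _, hT2⟩ := ih2
    refine ⟨T1 ∪ T2, hne.mono Finset.subset_union_left, Typ.conv
      (hT1.restrict_mono (by simp)) (hT2.restrict_mono (by simp)) hc⟩

end Vale.Agent.Lib.P340
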