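import Vale.Agent.Lib.P340.Defs

/-! Substitution calculus for raw expressions. -/

namespace Vale.Agent.Lib.P340

universe u
variable {S : Type u}

@[simp] theorem scons_zero {α : Type*} (a : α) (f : ℕ → α) : scons a f 0 = a := rfl
@[simp] theorem scons_succ {α : Type*} (a : α) (f : ℕ → α) (n : ℕ) : scons a f (n + 1) = f n := rfl

theorem scons_comp {α β : Type*} (g : α → β) (a : α) (f : ℕ → α) :
    (fun x => g (scons a f x)) = scons (g a) (fun x => g (f x)) := by
  funext x; cases x <;> rfl

@[simp] theorem upr_zero (ξ : ℕ → ℕ) : upr ξ 0 = 0 := rfl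
@[simp] theorem upr_succ (ξ : ℕ → ℕ) (n : ℕ) : upr ξ (n + 1) = ξ n + 1 := rfl
@[simp] theorem ups_zero (σ : ℕ → Tm S) : ups σ 0 = Tm.var 0 := rfl
@[simp] theorem ups_succ (σ : ℕ → Tm S) (n : ℕ) : ups σ (n + 1) = lift (σ n) := rfl

theorem upr_comp (ξ ζ : ℕ → ℕ) : (fun x => upr ξ (upr ζ x)) = upr (fun x => ξ (ζ x)) := by
  funext x; cases x <;> rfl

theorem rename_rename (M : Tm S) : ∀ (ξ ζ : ℕ → ℕ),
    rename ξ (rename ζ M) = rename (fun x => ξ (ζ x)) M := by
  induction M with
  | var x => intro ξ ζ; rfl
  | sort s => intro ξ ζ; rfl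
  | app M N ihM ihN => intro ξ ζ; simp only [rename, ihM, ihN]
  | lam A M ihA ihM => intro ξ ζ; simp only [rename, ihA, ihM, upr_comp]
  | pi A M ihA ihM => intro ξ ζ; simp only [rename, ihA, ihM, upr_comp]

theorem ups_var : ups (Tm.var : ℕ → Tm S) = Tm.var := by
  funext x; cases x <;> rfl

theorem subst_var (M : Tm S) : subst Tm.var M = M := by
  induction M with
  | var x => rfl
  | sort s => rfl
  | app M N ihM ihN => simp only [subst, ihM, ihN]
  | lam A M ihA ihM => simp only [subst, ihA, ihM, ups_var]
  | pi A M ihA ihM => simp only [subst, ihA, ihM, ups_var]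

theorem ups_upr (σ : ℕ → Tm S) (ξ : ℕ → ℕ) :
    (fun x => ups σ (upr ξ x)) = ups (fun x => σ (ξ x)) := by
  funext x; cases x <;> rfl

theorem subst_rename (M : Tm S) : ∀ (σ : ℕ → Tm S) (ξ : ℕ → ℕ),
    subst σ (rename ξ M) = subst (fun x => σ (ξ x)) M := by
  induction M with
  | var x => intro σ ξ; rfl
  | sort s => intro σ ξ; rfl
  | app M N ihM ihN => intro σ ξ; simp only [rename, subst, ihM, ihN]
  | lam A M ihA ihM => intro σ ξ; simp only [rename, subst, ihA, ihM, ups_upr]
  | pi A M ihA ihM => intro σ ξ; simp only [rename, subst, ihA, ihM, ups_upr]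

theorem upr_ups (σ : ℕ → Tm S) (ξ : ℕ → ℕ) :
    (fun x => rename (upr ξ) (ups σ x)) = ups (fun x => rename ξ (σ x)) := by
  funext x
  cases x with
  | zero => rfl
  | succ n =>
    simp only [ups_succ, lift, rename_rename]
    rfl

theorem rename_subst (M : Tm S) : ∀ (σ : ℕ → Tm S) (ξ : ℕ → ℕ),
    rename ξ (subst σ M) = subst (fun x => rename ξ (σ x)) M := by
  induction M with
  | var x => intro σ ξ; rfl
  | sort s => intro σ ξ; rfl
  | app M N ihM ihN => intro σ ξ; simp only [rename, subst, ihM, ihN]
  | lam A M ihA ihM => intro σ ξ; simp only [rename, subst, ihA, ihM, upr_ups]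
  | pi A M ihA ihM => intro σ ξ; simp only [rename, subst, ihA, ihM, upr_ups]

theorem ups_ups (σ τ : ℕ → Tm S) :
    (fun x => subst (ups τ) (ups σ x)) = ups (fun x => subst τ (σ x)) := by
  funext x
  cases x with
  | zero => rfl
  | succ n =>
    simp only [ups_succ, lift, subst_rename, rename_subst]

theorem subst_subst (M : Tm S) : ∀ (σ τ : ℕ → Tm S),
    subst τ (subst σ M) = subst (fun x => subst τ (σ x)) M := by
  induction M with
  | var x => intro σ τ; rfl
  | sort s => intro σ τ; rfl
  | app M N ihM ihN => intro σ τ; simp only [subst, ihM, ihN]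
  | lam A M ihA ihM => intro σ τ; simp only [subst, ihA, ihM, ups_ups]
  | pi A M ihA ihM => intro σ τ; simp only [subst, ihA, ihM, ups_ups]

theorem rename_eq_subst (M : Tm S) : ∀ (ξ : ℕ → ℕ), rename ξ M = subst (fun x => Tm.var (ξ x)) M := by
  induction M with
  | var x => intro ξ; rfl
  | sort s => intro ξ; rfl
  | app M N ihM ihN => intro ξ; simp only [rename, subst, ihM, ihN]
  | lam A M ihA ihM =>
    intro ξ
    have : ups (fun x => (Tm.var (ξ x) : Tm S)) = fun x => Tm.var (upr ξ x) := by
      funext x; cases x <;> rfl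
    simp only [rename, subst, ihA, ihM, this]
  | pi A M ihA ihM =>
    intro ξ
    have : ups (fun x => (Tm.var (ξ x) : Tm S)) = fun x => Tm.var (upr ξ x) := by
      funext x; cases x <;> rfl
    simp only [rename, subst, ihA, ihM, this]

/-- Substitution commutes with instantiation. -/
theorem subst_inst (σ : ℕ → Tm S) (N M : Tm S) :
    subst σ (inst N M) = inst (subst σ N) (subst (ups σ) M) := by
  simp only [inst, subst_subst]
  congr 1
  funext x
  cases x with
  | zero => rfl
  | succ n =>
    simp only [scons_succ, ups_succ, lift, subst_rename, subst]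
    exact (subst_var _).symm

theorem rename_inst (ξ : ℕ → ℕ) (N M : Tm S) :
    rename ξ (inst N M) = inst (rename ξ N) (rename (upr ξ) M) := by
  simp only [inst, rename_subst, subst_rename]
  congr 1
  funext x
  cases x <;> rfl

theorem inst_lift (N M : Tm S) : inst N (lift M) = M := by
  simp only [inst, lift, subst_rename]
  exact subst_var M

/-- Instantiating after a lifted substitution is one simultaneous substitution. -/
theorem inst_subst_ups (σ : ℕ → Tm S) (N M : Tm S) :
    inst N (subst (ups σ) M) = subst (scons N σ) M := by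
  simp only [inst, subst_subst]
  congr 1
  funext x
  cases x with
  | zero => rfl
  | succ n =>
    simp only [scons_succ, ups_succ, lift, subst_rename]
    exact subst_var _

end Vale.Agent.Lib.P340
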